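import Vale.Agent.Lib.P161.End.Final
import Vale.Agent.Lib.P161.Facts
import Vale.Agent.Lib.P161.Noise
import Vale.Agent.Lib.P161.Unique

/-!
P161: the free Ising measure on the `d`-regular tree is a factor of IID for every `β` with
`tanh² β * (d - 1) ≤ 1`, the endpoint included.
-/

open Vale.Agent.Lib.P161

namespace Vale.Agent.Results.P161.A_all

/-- For any `d`-regular tree `G` and any `β ≥ 0` with `θ = tanh β` satisfying `θ² (d - 1) ≤ 1`
there is exactly one measure with the free Ising cylinder weights, and it is a factor of IID. -/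
theorem result {V : Type*} (G : SimpleGraph V) [G.LocallyFinite] (hT : G.IsTree) (d : ℕ)
    (hd : 1 ≤ d) (hdeg : ∀ v, G.degree v = d) (β : ℝ) (hβ : 0 ≤ β)
    (hθ : Real.tanh β ^ 2 * ((d : ℝ) - 1) ≤ 1) :
    ∃ ν, (IsFreeIsing G (Real.tanh β) ν ∧ ∀ ν', IsFreeIsing G (Real.tanh β) ν' → ν' = ν) ∧
      IsFactorOfIID G ν := by
  classical
  have hc : Countable V := countable_of_connected hT.1
  have h0 : 0 ≤ Real.tanh β := by
    rw [Real.tanh_eq_sinh_div_cosh]
    exact div_nonneg (Real.sinh_nonneg_iff.2 hβ) (Real.cosh_pos β).le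
  have h1 : Real.tanh β < 1 := Real.tanh_lt_one β
  rcases lt_or_eq_of_le hθ with hlt | heq
  · obtain ⟨γ, hm, hr, hn⟩ := exists_noise V
    have hp : TreeParams G d (Real.tanh β) := ⟨hT, hdeg, hd, h0, h1, hlt⟩
    obtain ⟨ν, hν, hF⟩ := main_of_facts (d := d) γ hm h0 h1
      (fun v t ht δ hδ => fact_F1 hp hn hr v t ht hδ)
      (fun v t₁ t₂ ht ht₂ δ hδ => fact_F2 hp hn v t₁ t₂ ht ht₂ hδ)
      (fun D hD η t ht δ hδ => fact_F3 hp hn D hD η t ht hδ)
      (fun v t ht δ hδ => fact_F4 hp hn v t ht hδ)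
    exact ⟨ν, ⟨hν, fun ν' h' => isFreeIsing_unique hT.1 hν h'⟩, hF⟩
  · have hpos : 0 < Real.tanh β := by
      rcases h0.lt_or_eq with h | h
      · exact h
      · exfalso
        rw [← h] at heq
        norm_num at heq
    have hd3 : 3 ≤ d := by
      by_contra hlt3
      have hle : d ≤ 2 := by omega
      have hdc : (d : ℝ) ≤ 2 := by exact_mod_cast hle
      have hd1c : (1 : ℝ) ≤ d := by exact_mod_cast hd
      have hs : Real.tanh β ^ 2 < 1 := by nlinarith
      have hq : (d : ℝ) - 1 ≤ 1 := by linarith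
      have hq0 : 0 ≤ (d : ℝ) - 1 := by linarith
      have hm : Real.tanh β ^ 2 * ((d : ℝ) - 1) ≤ Real.tanh β ^ 2 * 1 :=
        mul_le_mul_of_nonneg_left hq (sq_nonneg _)
      linarith
    obtain ⟨ν, hν, hF⟩ := fiid_endpoint (G := G) hT hdeg hd3 hpos h1 heq
    exact ⟨ν, ⟨hν, fun ν' h' => isFreeIsing_unique hT.1 hν h'⟩, hF⟩

end Vale.Agent.Results.P161.A_all
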